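import Vale.Agent.P358.GAD.LubG
import Vale.Agent.P358.GAD.OmScal

namespace Vale.Agent.P358F
open Vale.Agent.P358
open Matrix
open scoped ComplexOrder

/-- entries of a qubit state. -/
private theorem state_entries' (σ : Matrix (Fin 2) (Fin 2) ℂ) (hσ : IsState σ) :
    σ 0 0 = ((1 - (σ 1 1).re : ℝ) : ℂ) ∧ σ 1 1 = (((σ 1 1).re : ℝ) : ℂ) ∧
      σ 1 0 = (starRingEnd ℂ) (σ 0 1) ∧ 0 ≤ (σ 1 1).re ∧ (σ 1 1).re ≤ 1 := by
  have h00 := Complex.le_def.1 (hσ.1.diag_nonneg (i := 0))
  have h11 := Complex.le_def.1 (hσ.1.diag_nonneg (i := 1))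
  have ht := hσ.2
  rw [Matrix.trace_fin_two] at ht
  have htr := congrArg Complex.re ht
  simp only [Complex.add_re, Complex.one_re] at htr
  have e11 : σ 1 1 = (((σ 1 1).re : ℝ) : ℂ) := by
    apply Complex.ext
    · simp
    · simpa using h11.2.symm
  have e00 : σ 0 0 = ((1 - (σ 1 1).re : ℝ) : ℂ) := by
    apply Complex.ext
    · simp only [Complex.ofReal_re]; linarith
    · simpa using h00.2.symm
  have e10 : σ 1 0 = (starRingEnd ℂ) (σ 0 1) := (hσ.1.1.apply 1 0).symm
  refine ⟨e00, e11, e10, h11.1, ?_⟩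
  have := h00.1
  simp only [Complex.zero_re] at this
  linarith

/-- the output entropy is at most the entropy of the output populations
(`St_le_of_det` against the diagonal matrix, `St_diagonal`,
`Real.binEntropy_eq_negMulLog_add_negMulLog_one_sub`). -/
theorem St_gadc_le_diag (γ ν : ℝ) (h0 : 0 ≤ γ) (h1 : γ ≤ 1) (hν0 : 0 ≤ ν) (hν1 : ν ≤ 1)
    (σ : Matrix (Fin 2) (Fin 2) ℂ) (hσ : IsState σ) :
    St (gadc γ ν σ) ≤ Real.binEntropy ((1 - γ) * (σ 1 1).re + γ * ν) := by
  obtain ⟨e00, e11, e10, hr0, hr1⟩ := state_entries' σ hσ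
  set r := (σ 1 1).re with hr
  set t := (1 - γ) * r + γ * ν with ht
  have hG := gadc_isState γ ν h0 h1 hν0 hν1 σ hσ
  have hs1 : Real.sqrt (1 - γ) * Real.sqrt (1 - γ) = 1 - γ := Real.mul_self_sqrt (by linarith)
  have ht0 : 0 ≤ t := by
    have := mul_nonneg (by linarith : 0 ≤ 1 - γ) hr0
    have := mul_nonneg h0 hν0
    linarith
  have ht1 : t ≤ 1 := by
    have a1 : (1 - γ) * r ≤ (1 - γ) * 1 := mul_le_mul_of_nonneg_left hr1 (by linarith)
    have a2 : γ * ν ≤ γ * 1 := mul_le_mul_of_nonneg_left hν1 h0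
    linarith
  have hd : ∀ i : Fin 2, 0 ≤ (![1 - t, t] : Fin 2 → ℝ) i := by
    intro i
    fin_cases i
    · simpa using ht1
    · simpa using ht0
  have hdiag := St_diagonal (X := Fin 2) ![1 - t, t] hd
  have hpsd : (diagonal fun i => (((![1 - t, t] : Fin 2 → ℝ) i : ℝ) : ℂ)).PosSemidef :=
    Matrix.PosSemidef.diagonal (fun i => by
      show (0 : ℂ) ≤ (((![1 - t, t] : Fin 2 → ℝ) i : ℝ) : ℂ)
      exact_mod_cast hd i)
  have hle : St (gadc γ ν σ) ≤ St (diagonal fun i => (((![1 - t, t] : Fin 2 → ℝ) i : ℝ) : ℂ)) := by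
    refine St_le_of_det _ _ hG.1 hpsd rfl ?_ ?_
    · rw [hG.2, Matrix.trace_fin_two]
      simp
    · intro s hs
      have d1 : (((s : ℂ) • (1 : Matrix (Fin 2) (Fin 2) ℂ) +
          diagonal fun i => (((![1 - t, t] : Fin 2 → ℝ) i : ℝ) : ℂ)).det).re =
          (s + (1 - t)) * (s + t) := by
        rw [Matrix.det_fin_two]
        simp only [Matrix.add_apply, Matrix.smul_apply, Matrix.one_apply_eq, Matrix.diagonal_apply_eq,
          Matrix.cons_val_zero, Matrix.cons_val_one, Matrix.cons_val_fin_one,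
          smul_eq_mul, mul_one, ne_eq, zero_ne_one, one_ne_zero, not_false_eq_true,
          Matrix.one_apply_ne, Matrix.diagonal_apply_ne, mul_zero, zero_add, sub_zero]
        rw [← Complex.ofReal_add, ← Complex.ofReal_add, ← Complex.ofReal_mul, Complex.ofReal_re]
      have d2 : (((s : ℂ) • (1 : Matrix (Fin 2) (Fin 2) ℂ) + gadc γ ν σ).det).re =
          (s + ((1 - γ * ν) * (1 - r) + γ * (1 - ν) * r)) *
            (s + (γ * ν * (1 - r) + (1 - γ * (1 - ν)) * r))
            - (1 - γ) * Complex.normSq (σ 0 1) := by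
        rw [Matrix.det_fin_two]
        simp only [gadc, Matrix.add_apply, Matrix.smul_apply, Matrix.one_apply_eq, Matrix.of_apply,
          Matrix.cons_val', Matrix.cons_val_zero, Matrix.cons_val_one, Matrix.cons_val_fin_one,
          smul_eq_mul, mul_one, ne_eq, zero_ne_one, one_ne_zero, not_false_eq_true,
          Matrix.one_apply_ne, mul_zero, zero_add]
        rw [e00, e11, e10]
        have e : ((Real.sqrt (1 - γ) : ℝ) : ℂ) * σ 0 1 *
            (((Real.sqrt (1 - γ) : ℝ) : ℂ) * (starRingEnd ℂ) (σ 0 1)) =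
            (((1 - γ) * Complex.normSq (σ 0 1) : ℝ) : ℂ) := by
          rw [mul_mul_mul_comm, ← Complex.ofReal_mul, hs1, Complex.mul_conj, ← Complex.ofReal_mul]
        rw [e]
        simp only [← Complex.ofReal_add, ← Complex.ofReal_mul, ← Complex.ofReal_sub,
          Complex.ofReal_re]
      rw [d1, d2]
      have hn : 0 ≤ (1 - γ) * Complex.normSq (σ 0 1) :=
        mul_nonneg (by linarith) (Complex.normSq_nonneg _)
      have ea : (1 - γ * ν) * (1 - r) + γ * (1 - ν) * r = 1 - t := by rw [ht]; ring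
      have eb : γ * ν * (1 - r) + (1 - γ * (1 - ν)) * r = t := by rw [ht]; ring
      rw [ea, eb]
      linarith
  rw [hdiag, Fin.sum_univ_two] at hle
  rw [Real.binEntropy_eq_negMulLog_add_negMulLog_one_sub]
  simp only [Matrix.cons_val_zero, Matrix.cons_val_one, Matrix.cons_val_fin_one] at hle
  linarith

end Vale.Agent.P358F
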