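import Vale.Agent.P358.GAD.LubG
import Vale.Agent.P358.GAD.OmScal

namespace Vale.Agent.P358F
open Vale.Agent.P358
open Matrix
open scoped ComplexOrder

/-- entries of a qubit state. -/
private theorem state_entries (σ : Matrix (Fin 2) (Fin 2) ℂ) (hσ : IsState σ) :
    σ 0 0 = ((1 - (σ 1 1).re : ℝ) : ℂ) ∧ σ 1 1 = (((σ 1 1).re : ℝ) : ℂ) ∧
      σ 1 0 = (starRingEnd ℂ) (σ 0 1) ∧ 0 ≤ (σ 1 1).re ∧ (σ 1 1).re ≤ 1 ∧
      Complex.normSq (σ 0 1) ≤ (1 - (σ 1 1).re) * (σ 1 1).re := by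
  have h00 := Complex.le_def.1 (hσ.1.diag_nonneg (i := 0))
  have h11 := Complex.le_def.1 (hσ.1.diag_nonneg (i := 1))
  have ht := hσ.2
  rw [Matrix.trace_fin_two] at ht
  have htr := congrArg Complex.re ht
  simp only [Complex.add_re, Complex.one_re] at htr
  have e11 : σ 1 1 = (((σ 1 1).re : ℝ) : ℂ) := by
    apply Complex.ext
    · simp
    · simpa using h11.2.symm
  have e00 : σ 0 0 = ((1 - (σ 1 1).re : ℝ) : ℂ) := by
    apply Complex.ext
    · simp only [Complex.ofReal_re]; linarith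
    · simpa using h00.2.symm
  have e10 : σ 1 0 = (starRingEnd ℂ) (σ 0 1) := (hσ.1.1.apply 1 0).symm
  have hdet := Complex.le_def.1 hσ.1.det_nonneg
  rw [Matrix.det_fin_two, e10, Complex.mul_conj, e00] at hdet
  nth_rewrite 2 [e11] at hdet
  rw [← Complex.ofReal_mul, ← Complex.ofReal_sub] at hdet
  have hd := hdet.1
  simp only [Complex.zero_re, Complex.ofReal_re] at hd
  refine ⟨e00, e11, e10, h11.1, ?_, by linarith⟩
  have := h00.1
  simp only [Complex.zero_re] at this
  linarith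

/-- among the inputs of a given excited population the pure ones have the least output entropy
(`St_le_of_det`: same trace, and the off-diagonal entry `z` of a state satisfies
`|z| ^ 2 ≤ r (1 - r)`). -/
theorem St_omG_le_gadc (γ ν : ℝ) (h0 : 0 ≤ γ) (h1 : γ ≤ 1) (hν0 : 0 ≤ ν) (hν1 : ν ≤ 1)
    (σ : Matrix (Fin 2) (Fin 2) ℂ) (hσ : IsState σ) :
    St (omG γ ν (1 - (σ 1 1).re) (σ 1 1).re) ≤ St (gadc γ ν σ) := by
  obtain ⟨e00, e11, e10, hr0, hr1, hz⟩ := state_entries σ hσ
  set r := (σ 1 1).re with hr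
  have hG := gadc_isState γ ν h0 h1 hν0 hν1 σ hσ
  have hs1 : Real.sqrt (1 - γ) * Real.sqrt (1 - γ) = 1 - γ := Real.mul_self_sqrt (by linarith)
  have hs2 : Real.sqrt ((1 - r) * r) * Real.sqrt ((1 - r) * r) = (1 - r) * r :=
    Real.mul_self_sqrt (mul_nonneg (by linarith) hr0)
  refine St_le_of_det _ _ (omG_posSemidef γ ν (1 - r) r h0 h1 hν0 hν1 (by linarith) hr0) hG.1 rfl ?_ ?_
  · rw [omG_trace, hG.2]
    simp
  · intro s hs
    have d1 : (((s : ℂ) • (1 : Matrix (Fin 2) (Fin 2) ℂ) + omG γ ν (1 - r) r).det).re =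
        (s + ((1 - γ * ν) * (1 - r) + γ * (1 - ν) * r)) * (s + (γ * ν * (1 - r) + (1 - γ * (1 - ν)) * r))
          - (1 - γ) * ((1 - r) * r) := by
      rw [Matrix.det_fin_two]
      simp only [omG, Matrix.add_apply, Matrix.smul_apply, Matrix.one_apply_eq, Matrix.of_apply,
        Matrix.cons_val', Matrix.cons_val_zero, Matrix.cons_val_one, Matrix.cons_val_fin_one,
        smul_eq_mul, mul_one, ne_eq, zero_ne_one, one_ne_zero, not_false_eq_true,
        Matrix.one_apply_ne, mul_zero, zero_add]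
      rw [← Complex.ofReal_add, ← Complex.ofReal_add, ← Complex.ofReal_mul, ← Complex.ofReal_mul,
        ← Complex.ofReal_sub, Complex.ofReal_re]
      have : Real.sqrt (1 - γ) * Real.sqrt ((1 - r) * r) *
          (Real.sqrt (1 - γ) * Real.sqrt ((1 - r) * r)) = (1 - γ) * ((1 - r) * r) := by
        rw [mul_mul_mul_comm, hs1, hs2]
      rw [this]
    have d2 : (((s : ℂ) • (1 : Matrix (Fin 2) (Fin 2) ℂ) + gadc γ ν σ).det).re =
        (s + ((1 - γ * ν) * (1 - r) + γ * (1 - ν) * r)) * (s + (γ * ν * (1 - r) + (1 - γ * (1 - ν)) * r))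
          - (1 - γ) * Complex.normSq (σ 0 1) := by
      rw [Matrix.det_fin_two]
      simp only [gadc, Matrix.add_apply, Matrix.smul_apply, Matrix.one_apply_eq, Matrix.of_apply,
        Matrix.cons_val', Matrix.cons_val_zero, Matrix.cons_val_one, Matrix.cons_val_fin_one,
        smul_eq_mul, mul_one, ne_eq, zero_ne_one, one_ne_zero, not_false_eq_true,
        Matrix.one_apply_ne, mul_zero, zero_add]
      rw [e00, e11, e10]
      have e : ((Real.sqrt (1 - γ) : ℝ) : ℂ) * σ 0 1 *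
          (((Real.sqrt (1 - γ) : ℝ) : ℂ) * (starRingEnd ℂ) (σ 0 1)) =
          (((1 - γ) * Complex.normSq (σ 0 1) : ℝ) : ℂ) := by
        rw [mul_mul_mul_comm, ← Complex.ofReal_mul, hs1, Complex.mul_conj, ← Complex.ofReal_mul]
      rw [e]
      simp only [← Complex.ofReal_add, ← Complex.ofReal_mul, ← Complex.ofReal_sub,
        Complex.ofReal_re]
    rw [d1, d2]
    have : (1 - γ) * Complex.normSq (σ 0 1) ≤ (1 - γ) * ((1 - r) * r) :=
      mul_le_mul_of_nonneg_left hz (by linarith)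
    linarith

end Vale.Agent.P358F
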