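import Vale.Agent.P358.GAD.LubG
import Vale.Agent.P358.GAD.OmScal

namespace Vale.Agent.P358F
open Vale.Agent.P358
open Matrix
open scoped ComplexOrder

/-- the excited population of a state lies in `[0, 1]`. -/
theorem state_pop_mem (σ : Matrix (Fin 2) (Fin 2) ℂ) (hσ : IsState σ) :
    0 ≤ (σ 1 1).re ∧ (σ 1 1).re ≤ 1 := by
  have h0 : 0 ≤ (σ 0 0).re := (Complex.le_def.1 (hσ.1.diag_nonneg (i := 0))).1
  have h1 : 0 ≤ (σ 1 1).re := (Complex.le_def.1 (hσ.1.diag_nonneg (i := 1))).1
  have ht := congrArg Complex.re hσ.2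
  rw [Matrix.trace_fin_two] at ht
  simp only [Complex.add_re, Complex.one_re] at ht
  exact ⟨h1, by linarith⟩

/-- the channel commutes with finite mixtures. -/
theorem gadc_mix (γ ν : ℝ) {k : ℕ} (q : Fin k → ℝ) (ρ : Fin k → Matrix (Fin 2) (Fin 2) ℂ) :
    ∑ a, (q a : ℂ) • gadc γ ν (ρ a) = gadc γ ν (∑ a, (q a : ℂ) • ρ a) := by
  ext i j
  fin_cases i <;> fin_cases j <;>
    simp [gadc, Matrix.sum_apply, Finset.mul_sum, Finset.sum_add_distrib] <;>
    first
      | (rw [← Finset.sum_add_distrib]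
         refine Finset.sum_congr rfl fun a _ => ?_
         ring)
      | (refine Finset.sum_congr rfl fun a _ => ?_
         ring)

end Vale.Agent.P358F
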