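import Mathlib

/-!
The function `E c = h ((1 + sqrt (1 - c ^ 2)) / 2)` (binary entropy in nats).
-/

namespace Vale.Agent.P358F

/-- entropy of a qubit state with determinant `c ^ 2 / 4`. -/
noncomputable def Ecv (c : ℝ) : ℝ := Real.binEntropy ((1 + Real.sqrt (1 - c ^ 2)) / 2)

end Vale.Agent.P358F
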