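import Vale.Agent.P358F.Ecv

namespace Vale.Agent.P358F

/-- `x = sqrt (1 - c ^ 2)`. -/
theorem hasDerivAt_sx {c : ℝ} (h0 : 0 < c) (h1 : c < 1) :
    HasDerivAt (fun y : ℝ => Real.sqrt (1 - y ^ 2)) (-c / Real.sqrt (1 - c ^ 2)) c := by
  have hpos : 0 < 1 - c ^ 2 := by nlinarith
  have h : HasDerivAt (fun y : ℝ => 1 - y ^ 2) (-(2 * c)) c := by
    have := (hasDerivAt_pow 2 c).const_sub 1
    simpa using this
  have h2 := h.sqrt hpos.ne'
  have hx : Real.sqrt (1 - c ^ 2) ≠ 0 := (Real.sqrt_pos.2 hpos).ne'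
  have e : -c / Real.sqrt (1 - c ^ 2) = -(2 * c) / (2 * Real.sqrt (1 - c ^ 2)) := by
    field_simp
  rw [e]
  exact h2

theorem sx_mem {c : ℝ} (h0 : 0 < c) (h1 : c < 1) :
    0 < Real.sqrt (1 - c ^ 2) ∧ Real.sqrt (1 - c ^ 2) < 1 := by
  have hpos : 0 < 1 - c ^ 2 := by nlinarith
  refine ⟨Real.sqrt_pos.2 hpos, ?_⟩
  have h := Real.sqrt_lt_sqrt hpos.le (show 1 - c ^ 2 < 1 by nlinarith)
  rwa [Real.sqrt_one] at h

theorem two_mul_le_log {x : ℝ} (h0 : 0 < x) (h1 : x < 1) :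
    2 * x ≤ Real.log (1 + x) - Real.log (1 - x) := by
  have hx : 0 < 1 - x := by linarith
  have h := Real.le_log_one_add_of_nonneg (x := 2 * x / (1 - x)) (by positivity)
  have e1 : 1 + 2 * x / (1 - x) = (1 + x) / (1 - x) := by field_simp; ring
  have e2 : 2 * (2 * x / (1 - x)) / (2 * x / (1 - x) + 2) = 2 * x := by field_simp; ring
  rw [e1, e2, Real.log_div (by linarith) hx.ne'] at h
  exact h

/-- first derivative. -/
theorem hasDerivAt_Ecv {c : ℝ} (h0 : 0 < c) (h1 : c < 1) :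
    HasDerivAt Ecv (c * (Real.log (1 + Real.sqrt (1 - c ^ 2)) - Real.log (1 - Real.sqrt (1 - c ^ 2)))
      / (2 * Real.sqrt (1 - c ^ 2))) c := by
  obtain ⟨hx0, hx1⟩ := sx_mem h0 h1
  set x := Real.sqrt (1 - c ^ 2) with hx
  have hp : HasDerivAt (fun y : ℝ => (1 + Real.sqrt (1 - y ^ 2)) / 2) ((-c / x) / 2) c :=
    ((hasDerivAt_sx h0 h1).const_add 1).div_const 2
  have hb := Real.hasDerivAt_binEntropy (p := (1 + x) / 2) (by positivity) (by linarith)
  have hcomp := hb.comp c hp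
  have e : (Real.log (1 - (1 + x) / 2) - Real.log ((1 + x) / 2)) * (-c / x / 2) =
      c * (Real.log (1 + x) - Real.log (1 - x)) / (2 * x) := by
    have e1 : 1 - (1 + x) / 2 = (1 - x) / 2 := by ring
    rw [e1, Real.log_div (by linarith) (by norm_num), Real.log_div (by linarith) (by norm_num)]
    field_simp
    ring
  rw [e] at hcomp
  exact hcomp

/-- algebra behind the second derivative. -/
theorem second_alg (c x L : ℝ) (hx0 : 0 < x) (hx1 : x < 1) (hxx : x ^ 2 = 1 - c ^ 2) :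
    (L / 2 - x) / x ^ 3 =
      ((1 * L + c * (-c / x / (1 + x) - -(-c / x) / (1 - x))) * (2 * x)
        - c * L * (2 * (-c / x))) / (2 * x) ^ 2 := by
  have h1x : (1 + x) ≠ 0 := by linarith
  have h1x' : (1 - x) ≠ 0 := by linarith
  have hx : x ≠ 0 := hx0.ne'
  have hc2 : c ^ 2 = (1 - x) * (1 + x) := by linarith
  have k1 : c * (-c / x / (1 + x) - -(-c / x) / (1 - x)) = -2 / x := by
    have e : c * (-c / x / (1 + x) - -(-c / x) / (1 - x)) =
        -(c ^ 2) * 2 / (x * ((1 - x) * (1 + x))) := by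
      field_simp
      ring
    rw [e, hc2]
    field_simp
  have k2 : c * L * (2 * (-c / x)) = -2 * c ^ 2 * L / x := by
    field_simp
  rw [k1, k2, hc2]
  field_simp
  ring

/-- second derivative. -/
theorem hasDerivAt_Ecv' {c : ℝ} (h0 : 0 < c) (h1 : c < 1) :
    HasDerivAt (fun y : ℝ => y * (Real.log (1 + Real.sqrt (1 - y ^ 2))
        - Real.log (1 - Real.sqrt (1 - y ^ 2))) / (2 * Real.sqrt (1 - y ^ 2)))
      (((Real.log (1 + Real.sqrt (1 - c ^ 2)) - Real.log (1 - Real.sqrt (1 - c ^ 2))) / 2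
        - Real.sqrt (1 - c ^ 2)) / Real.sqrt (1 - c ^ 2) ^ 3) c := by
  obtain ⟨hx0, hx1⟩ := sx_mem h0 h1
  have hxx : Real.sqrt (1 - c ^ 2) ^ 2 = 1 - c ^ 2 := Real.sq_sqrt (by nlinarith)
  have hs := hasDerivAt_sx h0 h1
  have hl1 := (hs.const_add 1).log (by linarith)
  have hl2 := (hs.const_sub 1).log (by linarith)
  have hnum := (hasDerivAt_id' c).fun_mul (hl1.fun_sub hl2)
  have hden := hs.const_mul 2
  have h := hnum.fun_div hden (by positivity)
  rw [second_alg c _ _ hx0 hx1 hxx]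
  exact h

theorem Ecv_convexOn : ConvexOn ℝ (Set.Icc 0 1) Ecv := by
  refine convexOn_of_hasDerivWithinAt2_nonneg (convex_Icc 0 1)
    (f' := fun y : ℝ => y * (Real.log (1 + Real.sqrt (1 - y ^ 2))
        - Real.log (1 - Real.sqrt (1 - y ^ 2))) / (2 * Real.sqrt (1 - y ^ 2)))
    (f'' := fun c : ℝ => ((Real.log (1 + Real.sqrt (1 - c ^ 2))
        - Real.log (1 - Real.sqrt (1 - c ^ 2))) / 2
        - Real.sqrt (1 - c ^ 2)) / Real.sqrt (1 - c ^ 2) ^ 3) ?_ ?_ ?_ ?_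
  · unfold Ecv
    fun_prop
  · intro c hc
    rw [interior_Icc] at hc
    exact (hasDerivAt_Ecv hc.1 hc.2).hasDerivWithinAt
  · intro c hc
    rw [interior_Icc] at hc
    exact (hasDerivAt_Ecv' hc.1 hc.2).hasDerivWithinAt
  · intro c hc
    rw [interior_Icc] at hc
    obtain ⟨hx0, hx1⟩ := sx_mem hc.1 hc.2
    have := two_mul_le_log hx0 hx1
    apply div_nonneg _ (by positivity)
    linarith

end Vale.Agent.P358F
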