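import Vale.Agent.P358F.Ecv

namespace Vale.Agent.P358F

/-- `c ↦ (1 + sqrt (1 - c ^ 2)) / 2` is antitone with values in `[1/2, 1]`, where the binary entropy
is antitone (`Real.binEntropy_strictAntiOn`). -/
theorem Ecv_monotoneOn : MonotoneOn Ecv (Set.Icc 0 1) := by
  intro a ha b hb hab
  unfold Ecv
  have hmem : ∀ c : ℝ, (1 + Real.sqrt (1 - c ^ 2)) / 2 ∈ Set.Icc (2⁻¹ : ℝ) 1 := by
    intro c
    have h0 := Real.sqrt_nonneg (1 - c ^ 2)
    have h1 : Real.sqrt (1 - c ^ 2) ≤ 1 := by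
      rw [Real.sqrt_le_left zero_le_one]
      nlinarith [sq_nonneg c]
    constructor <;> linarith
  refine Real.binEntropy_strictAntiOn.antitoneOn (hmem b) (hmem a) ?_
  have hs : Real.sqrt (1 - b ^ 2) ≤ Real.sqrt (1 - a ^ 2) := by
    apply Real.sqrt_le_sqrt
    have := ha.1
    nlinarith
  linarith

end Vale.Agent.P358F
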