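import Mathlib

/-!
Minkowski inequality for three squares, in the weighted form used for the convexity of the square
root of the output determinant.
-/

namespace Vale.Agent.P358F

theorem sqrt_three_sq_sum_le {k : ℕ} (q u v : Fin k → ℝ) (A : ℝ) (hq : ∀ a, 0 ≤ q a)
    (hq1 : ∑ a, q a = 1) :
    Real.sqrt (A ^ 2 + (∑ a, q a * u a) ^ 2 + (∑ a, q a * v a) ^ 2) ≤
      ∑ a, q a * Real.sqrt (A ^ 2 + (u a) ^ 2 + (v a) ^ 2) := by
  have hn : ∀ x y z : ℝ, ‖(!₂[x, y, z] : EuclideanSpace ℝ (Fin 3))‖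
      = Real.sqrt (x ^ 2 + y ^ 2 + z ^ 2) := by
    intro x y z
    rw [EuclideanSpace.norm_eq, Fin.sum_univ_three]
    simp
  have hs : (∑ a, q a • (!₂[A, u a, v a] : EuclideanSpace ℝ (Fin 3)))
      = !₂[A, ∑ a, q a * u a, ∑ a, q a * v a] := by
    ext i
    fin_cases i
    · simp [← Finset.sum_mul, hq1]
    · simp
    · simp
  calc Real.sqrt (A ^ 2 + (∑ a, q a * u a) ^ 2 + (∑ a, q a * v a) ^ 2)
      = ‖∑ a, q a • (!₂[A, u a, v a] : EuclideanSpace ℝ (Fin 3))‖ := by rw [hs, hn]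
    _ ≤ ∑ a, ‖q a • (!₂[A, u a, v a] : EuclideanSpace ℝ (Fin 3))‖ := norm_sum_le _ _
    _ = ∑ a, q a * Real.sqrt (A ^ 2 + (u a) ^ 2 + (v a) ^ 2) := by
        refine Finset.sum_congr rfl fun a _ => ?_
        rw [norm_smul, hn, Real.norm_eq_abs, abs_of_nonneg (hq a)]

end Vale.Agent.P358F
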