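import Vale.Agent.P358F.EcvMono
import Vale.Agent.P358F.EcvConv
import Vale.Agent.P358F.Mink
import Vale.Agent.P358F.Comp1
import Vale.Agent.P358F.Comp2
import Vale.Agent.P358F.Comp3

/-!
The explicit one-parameter formula for the Holevo capacity of the generalized amplitude damping
channel.
-/

namespace Vale.Agent.P358F
open Vale.Agent.P358
open Matrix
open scoped ComplexOrder

/-- determinant of the output of a pure input state with excited population `r`. -/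
noncomputable def outDet (γ ν r : ℝ) : ℝ :=
  γ ^ 2 * ν * (1 - ν) + γ * (1 - γ) * (ν * (1 - r) ^ 2 + (1 - ν) * r ^ 2)

/-- the function to be maximised, in bits. -/
noncomputable def capFormula (γ ν r : ℝ) : ℝ :=
  (Real.binEntropy ((1 - γ) * r + γ * ν)
    - Real.binEntropy ((1 + Real.sqrt (1 - 4 * outDet γ ν r)) / 2)) / Real.log 2

theorem DG_eq_outDet (γ ν r : ℝ) : DG γ ν (1 - r) r = outDet γ ν r := by
  unfold DG outDet; ring

theorem outDet_nonneg (γ ν r : ℝ) (h0 : 0 ≤ γ) (h1 : γ ≤ 1) (hν0 : 0 ≤ ν) (hν1 : ν ≤ 1) :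
    0 ≤ outDet γ ν r := by
  unfold outDet
  have a1 : 0 ≤ 1 - ν := by linarith
  have a2 : 0 ≤ 1 - γ := by linarith
  positivity

theorem outDet_le (γ ν r : ℝ) (h1 : γ ≤ 1) (hr0 : 0 ≤ r) (hr1 : r ≤ 1) :
    4 * outDet γ ν r ≤ 1 := by
  have e : 1 - 4 * outDet γ ν r =
      (1 - 2 * ((1 - γ) * r + γ * ν)) ^ 2 + 4 * ((1 - γ) * (r * (1 - r))) := by
    unfold outDet; ring
  have : 0 ≤ (1 - γ) * (r * (1 - r)) :=
    mul_nonneg (by linarith) (mul_nonneg hr0 (by linarith))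
  nlinarith [sq_nonneg (1 - 2 * ((1 - γ) * r + γ * ν))]

theorem Ecv_two_sqrt (D : ℝ) (hD : 0 ≤ D) :
    Ecv (2 * Real.sqrt D) = Real.binEntropy ((1 + Real.sqrt (1 - 4 * D)) / 2) := by
  unfold Ecv
  have : (2 * Real.sqrt D) ^ 2 = 4 * D := by
    rw [mul_pow, Real.sq_sqrt hD]; norm_num
  rw [this]

theorem St_omG_eq_Ecv (γ ν r : ℝ) (h0 : 0 ≤ γ) (h1 : γ ≤ 1) (hν0 : 0 ≤ ν) (hν1 : ν ≤ 1)
    (hr0 : 0 ≤ r) (hr1 : r ≤ 1) :
    St (omG γ ν (1 - r) r) = Ecv (2 * Real.sqrt (outDet γ ν r)) := by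
  rw [St_omG γ ν (1 - r) r h0 h1 hν0 hν1 (by linarith) hr0, DG_eq_outDet,
    Ecv_two_sqrt _ (outDet_nonneg γ ν r h0 h1 hν0 hν1),
    Real.binEntropy_eq_negMulLog_add_negMulLog_one_sub]
  unfold rtP rtM
  have e1 : (1 - r + r) = 1 := by ring
  rw [e1]
  have e2 : (1 : ℝ) ^ 2 = 1 := by norm_num
  rw [e2]
  have e3 : 1 - (1 + Real.sqrt (1 - 4 * outDet γ ν r)) / 2 =
      (1 - Real.sqrt (1 - 4 * outDet γ ν r)) / 2 := by ring
  rw [e3]

theorem two_sqrt_outDet_mem (γ ν r : ℝ) (h1 : γ ≤ 1)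
    (hr0 : 0 ≤ r) (hr1 : r ≤ 1) : 2 * Real.sqrt (outDet γ ν r) ∈ Set.Icc (0 : ℝ) 1 := by
  refine ⟨by positivity, ?_⟩
  have h := outDet_le γ ν r h1 hr0 hr1
  have h2 : Real.sqrt (outDet γ ν r) ≤ Real.sqrt (1 / 4) := Real.sqrt_le_sqrt (by linarith)
  have h3 : Real.sqrt (1 / 4) = 1 / 2 := by
    rw [show (1 / 4 : ℝ) = (1 / 2) ^ 2 by norm_num, Real.sqrt_sq (by norm_num)]
  rw [h3] at h2
  linarith

/-- the square root of the output determinant is convex in the population. -/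
theorem sqrt_outDet_jensen (γ ν : ℝ) (h0 : 0 ≤ γ) (h1 : γ ≤ 1) (hν0 : 0 ≤ ν) (hν1 : ν ≤ 1) {k : ℕ}
    (q r : Fin k → ℝ) (hq : ∀ a, 0 ≤ q a) (hq1 : ∑ a, q a = 1) :
    Real.sqrt (outDet γ ν (∑ a, q a * r a)) ≤ ∑ a, q a * Real.sqrt (outDet γ ν (r a)) := by
  have a1 : 0 ≤ 1 - ν := by linarith
  have a2 : 0 ≤ 1 - γ := by linarith
  have hA : 0 ≤ γ ^ 2 * ν * (1 - ν) := by positivity
  have hU : 0 ≤ γ * (1 - γ) * ν := by positivity
  have hV : 0 ≤ γ * (1 - γ) * (1 - ν) := by positivity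
  have h := sqrt_three_sq_sum_le q (fun a => Real.sqrt (γ * (1 - γ) * ν) * (1 - r a))
    (fun a => Real.sqrt (γ * (1 - γ) * (1 - ν)) * r a) (Real.sqrt (γ ^ 2 * ν * (1 - ν))) hq hq1
  have e1 : ∑ a, q a * (Real.sqrt (γ * (1 - γ) * ν) * (1 - r a)) =
      Real.sqrt (γ * (1 - γ) * ν) * (1 - ∑ a, q a * r a) := by
    have e0 : ∑ a, q a * (Real.sqrt (γ * (1 - γ) * ν) * (1 - r a)) =
        Real.sqrt (γ * (1 - γ) * ν) * (∑ a, q a) - Real.sqrt (γ * (1 - γ) * ν) * ∑ a, q a * r a := by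
      rw [Finset.mul_sum, Finset.mul_sum, ← Finset.sum_sub_distrib]
      exact Finset.sum_congr rfl fun a _ => by ring
    rw [e0, hq1]; ring
  have e2 : ∑ a, q a * (Real.sqrt (γ * (1 - γ) * (1 - ν)) * r a) =
      Real.sqrt (γ * (1 - γ) * (1 - ν)) * ∑ a, q a * r a := by
    rw [Finset.mul_sum]
    exact Finset.sum_congr rfl fun a _ => by ring
  have e3 : ∀ x : ℝ, Real.sqrt (γ ^ 2 * ν * (1 - ν)) ^ 2
      + (Real.sqrt (γ * (1 - γ) * ν) * (1 - x)) ^ 2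
      + (Real.sqrt (γ * (1 - γ) * (1 - ν)) * x) ^ 2 = outDet γ ν x := by
    intro x
    rw [mul_pow, mul_pow, Real.sq_sqrt hA, Real.sq_sqrt hU, Real.sq_sqrt hV]
    unfold outDet; ring
  rw [e1, e2, e3] at h
  simpa only [e3] using h

/-- convexity of the output entropy of pure inputs in the population. -/
theorem Ecv_outDet_jensen (γ ν : ℝ) (h0 : 0 ≤ γ) (h1 : γ ≤ 1) (hν0 : 0 ≤ ν) (hν1 : ν ≤ 1) {k : ℕ}
    (q r : Fin k → ℝ) (hq : ∀ a, 0 ≤ q a) (hq1 : ∑ a, q a = 1) (hr0 : ∀ a, 0 ≤ r a)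
    (hr1 : ∀ a, r a ≤ 1) :
    Ecv (2 * Real.sqrt (outDet γ ν (∑ a, q a * r a))) ≤
      ∑ a, q a * Ecv (2 * Real.sqrt (outDet γ ν (r a))) := by
  have hrbar0 : 0 ≤ ∑ a, q a * r a := Finset.sum_nonneg fun a _ => mul_nonneg (hq a) (hr0 a)
  have hrbar1 : ∑ a, q a * r a ≤ 1 := by
    rw [← hq1]
    exact Finset.sum_le_sum fun a _ => mul_le_of_le_one_right (hq a) (hr1 a)
  have hmem : ∀ a ∈ (Finset.univ : Finset (Fin k)),
      2 * Real.sqrt (outDet γ ν (r a)) ∈ Set.Icc (0 : ℝ) 1 :=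
    fun a _ => two_sqrt_outDet_mem γ ν (r a) h1 (hr0 a) (hr1 a)
  have hconv := Ecv_convexOn.map_sum_le (t := Finset.univ) (w := q)
    (p := fun a => 2 * Real.sqrt (outDet γ ν (r a))) (fun a _ => hq a) hq1 hmem
  have hmid : ∑ a, q a • (2 * Real.sqrt (outDet γ ν (r a))) ∈ Set.Icc (0 : ℝ) 1 :=
    (convex_Icc (0 : ℝ) 1).sum_mem (fun a _ => hq a) hq1 hmem
  have hle : 2 * Real.sqrt (outDet γ ν (∑ a, q a * r a)) ≤
      ∑ a, q a • (2 * Real.sqrt (outDet γ ν (r a))) := by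
    have h := sqrt_outDet_jensen γ ν h0 h1 hν0 hν1 q r hq hq1
    have e : ∑ a, q a • (2 * Real.sqrt (outDet γ ν (r a))) =
        2 * ∑ a, q a * Real.sqrt (outDet γ ν (r a)) := by
      rw [Finset.mul_sum]
      exact Finset.sum_congr rfl fun a _ => by rw [smul_eq_mul]; ring
    rw [e]
    linarith
  have hmono := Ecv_monotoneOn (two_sqrt_outDet_mem γ ν _ h1 hrbar0 hrbar1) hmid hle
  refine hmono.trans ?_
  simpa only [smul_eq_mul] using hconv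

end Vale.Agent.P358F
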