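import Vale.Agent.P358F.Formula

/-!
The Holevo capacity of the generalized amplitude damping channel is the maximum of `capFormula`.
-/

namespace Vale.Agent.P358F
open Vale.Agent.P358
open Matrix
open scoped ComplexOrder

theorem log_two_pos : 0 < Real.log 2 := Real.log_pos (by norm_num)

/-- every value of the formula is attained by an ensemble of two pure states. -/
theorem capFormula_le_capacity (γ ν : ℝ) (h0 : 0 ≤ γ) (h1 : γ ≤ 1) (hν0 : 0 ≤ ν) (hν1 : ν ≤ 1)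
    (r : ℝ) (hr0 : 0 ≤ r) (hr1 : r ≤ 1) : capFormula γ ν r ≤ holevoCapacity (gadc γ ν) := by
  have h := first_bracketG γ ν h0 h1 hν0 hν1 (k := 1) (fun _ => 1) (fun _ => r)
    (fun _ => zero_le_one) (by simp) (fun _ => hr0) (fun _ => hr1)
  simp only [Finset.univ_unique, Finset.sum_singleton, one_mul] at h
  rw [St_omG_eq_Ecv γ ν r h0 h1 hν0 hν1 hr0 hr1,
    Ecv_two_sqrt _ (outDet_nonneg γ ν r h0 h1 hν0 hν1)] at h
  unfold capFormula
  rw [div_le_iff₀ log_two_pos, Real.binEntropy_eq_negMulLog_add_negMulLog_one_sub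
    ((1 - γ) * r + γ * ν)]
  have e : (1 - γ) * r + γ * ν = γ * ν + (1 - γ) * r := by ring
  rw [e]
  linarith

/-- every Holevo quantity is dominated by a value of the formula. -/
theorem holevoQuantity_le_capFormula (γ ν : ℝ) (h0 : 0 ≤ γ) (h1 : γ ≤ 1) (hν0 : 0 ≤ ν) (hν1 : ν ≤ 1)
    {k : ℕ} (q : Fin k → ℝ) (ρ : Fin k → Matrix (Fin 2) (Fin 2) ℂ) (hE : IsEnsemble q ρ) :
    ∃ r : ℝ, r ∈ Set.Icc (0 : ℝ) 1 ∧ holevoQuantity (gadc γ ν) q ρ ≤ capFormula γ ν r := by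
  obtain ⟨hq, hq1, hρ⟩ := hE
  set r : Fin k → ℝ := fun a => (ρ a 1 1).re with hr
  have hr0 : ∀ a, 0 ≤ r a := fun a => (state_pop_mem (ρ a) (hρ a)).1
  have hr1 : ∀ a, r a ≤ 1 := fun a => (state_pop_mem (ρ a) (hρ a)).2
  have hbar : IsState (∑ a, (q a : ℂ) • ρ a) := mixture_isState q ρ hq hq1 hρ
  have hpop : ((∑ a, (q a : ℂ) • ρ a) 1 1).re = ∑ a, q a * r a := by
    simp [Matrix.sum_apply, hr]
  have hmem := state_pop_mem _ hbar
  rw [hpop] at hmem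
  refine ⟨∑ a, q a * r a, ⟨hmem.1, hmem.2⟩, ?_⟩
  unfold holevoQuantity capFormula
  simp only [vnEntropy_eq_St]
  rw [gadc_mix]
  have hA := St_gadc_le_diag γ ν h0 h1 hν0 hν1 _ hbar
  rw [hpop] at hA
  have hB : ∑ a, q a * Ecv (2 * Real.sqrt (outDet γ ν (r a))) ≤
      ∑ a, q a * St (gadc γ ν (ρ a)) := by
    refine Finset.sum_le_sum fun a _ => mul_le_mul_of_nonneg_left ?_ (hq a)
    rw [← St_omG_eq_Ecv γ ν (r a) h0 h1 hν0 hν1 (hr0 a) (hr1 a)]
    exact St_omG_le_gadc γ ν h0 h1 hν0 hν1 (ρ a) (hρ a)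
  have hC := Ecv_outDet_jensen γ ν h0 h1 hν0 hν1 q r hq hq1 hr0 hr1
  rw [Ecv_two_sqrt _ (outDet_nonneg γ ν _ h0 h1 hν0 hν1)] at hC
  have e : ∑ a, q a * (St (gadc γ ν (ρ a)) / Real.log 2) =
      (∑ a, q a * St (gadc γ ν (ρ a))) / Real.log 2 := by
    rw [Finset.sum_div]
    exact Finset.sum_congr rfl fun a _ => by ring
  rw [e, ← sub_div]
  exact div_le_div_of_nonneg_right (by linarith) log_two_pos.le

theorem capFormula_continuous (γ ν : ℝ) : Continuous (capFormula γ ν) := by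
  unfold capFormula outDet
  fun_prop

/-- **The Holevo capacity is the maximum of the formula over `[0, 1]`.** -/
theorem isGreatest_capFormula (γ ν : ℝ) (h0 : 0 ≤ γ) (h1 : γ ≤ 1) (hν0 : 0 ≤ ν) (hν1 : ν ≤ 1) :
    IsGreatest (capFormula γ ν '' Set.Icc (0 : ℝ) 1) (holevoCapacity (gadc γ ν)) := by
  obtain ⟨r, hr, hmax⟩ := (isCompact_Icc (a := (0 : ℝ)) (b := 1)).exists_isMaxOn
    ⟨0, by simp⟩ (capFormula_continuous γ ν).continuousOn
  have hle : holevoCapacity (gadc γ ν) ≤ capFormula γ ν r := by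
    refine (isLUB_one_copyG γ ν h0 h1 hν0 hν1).2 ?_
    rintro x ⟨k, q, ρ, hE, rfl⟩
    obtain ⟨r', hr', hx⟩ := holevoQuantity_le_capFormula γ ν h0 h1 hν0 hν1 q ρ hE
    exact hx.trans (hmax hr')
  constructor
  · exact ⟨r, hr, le_antisymm (capFormula_le_capacity γ ν h0 h1 hν0 hν1 r hr.1 hr.2) hle⟩
  · rintro x ⟨r', hr', rfl⟩
    exact capFormula_le_capacity γ ν h0 h1 hν0 hν1 r' hr'.1 hr'.2

end Vale.Agent.P358F
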